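import Vale.Agent.H77.OT.Duality

/-!
# The path bound (piece [C] of the P074 plan)

Matched sites `y j → z j` with masses `m j`, moving along `P t j = y j + t • (z j - y j)`.
`c0 t` are optimal prices at time `t` for the uniform source on `K`, `cs t` optimal prices for
the source with density `1 + s g`.  If the first moments of the two optimal partitions differ by at
most `κ` in the weighted `ℓ²` sense at every good time (barycentre stability), then

`s * ∫_K (φ^{1,s} - φ^{0,0}) g ≤ κ * sqrt (∑ m j ‖z j - y j‖²)`.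
-/

namespace Vale.Agent.H77.OT

open MeasureTheory Set

variable {E : Type*} [NormedAddCommGroup E] [InnerProductSpace ℝ E] [FiniteDimensional ℝ E]
  [MeasurableSpace E] [BorelSpace E]
variable {ι : Type*} [Fintype ι] [Nonempty ι]

omit [FiniteDimensional ℝ E] [MeasurableSpace E] [BorelSpace E] [Nonempty ι] in
/-- Weighted Cauchy–Schwarz used in the path bound. -/
theorem sum_inner_le_of_weighted (m : ι → ℝ) (hm : ∀ j, 0 < m j) (Δ ξ : ι → E) (κ : ℝ)
    (hκ : 0 ≤ κ) (h : ∑ j, ‖Δ j‖ ^ 2 / m j ≤ κ ^ 2) :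
    ∑ j, inner ℝ (Δ j) (ξ j) ≤ κ * Real.sqrt (∑ j, m j * ‖ξ j‖ ^ 2) := by
  have h1 : ∑ j, inner ℝ (Δ j) (ξ j)
      ≤ ∑ j, (‖Δ j‖ / Real.sqrt (m j)) * (Real.sqrt (m j) * ‖ξ j‖) := by
    refine Finset.sum_le_sum fun j _ => ?_
    have hs : 0 < Real.sqrt (m j) := Real.sqrt_pos.2 (hm j)
    have : (‖Δ j‖ / Real.sqrt (m j)) * (Real.sqrt (m j) * ‖ξ j‖) = ‖Δ j‖ * ‖ξ j‖ := by
      field_simp
    rw [this]
    exact real_inner_le_norm _ _
  have h2 := Finset.sum_mul_sq_le_sq_mul_sq Finset.univ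
    (fun j => ‖Δ j‖ / Real.sqrt (m j)) (fun j => Real.sqrt (m j) * ‖ξ j‖)
  have e1 : ∀ j, (‖Δ j‖ / Real.sqrt (m j)) ^ 2 = ‖Δ j‖ ^ 2 / m j := fun j => by
    rw [div_pow, Real.sq_sqrt (hm j).le]
  have e2 : ∀ j, (Real.sqrt (m j) * ‖ξ j‖) ^ 2 = m j * ‖ξ j‖ ^ 2 := fun j => by
    rw [mul_pow, Real.sq_sqrt (hm j).le]
  simp only [e1, e2] at h2
  set W2 : ℝ := ∑ j, m j * ‖ξ j‖ ^ 2 with hW2
  have hW2nn : 0 ≤ W2 := Finset.sum_nonneg fun j _ => by
    have := (hm j).le; positivity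
  set S : ℝ := ∑ j, (‖Δ j‖ / Real.sqrt (m j)) * (Real.sqrt (m j) * ‖ξ j‖) with hS
  have h3 : S ^ 2 ≤ (κ * Real.sqrt W2) ^ 2 := by
    rw [mul_pow, Real.sq_sqrt hW2nn]
    exact h2.trans (mul_le_mul_of_nonneg_right h hW2nn)
  have h4 : S ≤ κ * Real.sqrt W2 :=
    (abs_le_of_sq_le_sq' h3 (mul_nonneg hκ (Real.sqrt_nonneg _))).2
  exact h1.trans h4

/-- **Path bound.** -/
theorem path_potential_bound (μ : Measure E) [μ.IsAddHaarMeasure] {K : Set E}
    (hKc : IsCompact K) (y z : ι → E) (m : ι → ℝ) (hm : ∀ j, 0 < m j)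
    (g : E → ℝ) (hgm : Measurable g) {Cg : ℝ} (hgb : ∀ x, |g x| ≤ Cg)
    (s : ℝ) (hs : 0 ≤ s) (hsg : ∀ x ∈ K, 0 ≤ 1 + s * g x)
    (G : Set ℝ) (hG0 : (0 : ℝ) ∈ G) (hG1 : (1 : ℝ) ∈ G)
    (hfin : (Set.Icc (0 : ℝ) 1 \ G).Finite)
    (hinj : ∀ t ∈ G, Function.Injective (fun j => y j + t • (z j - y j)))
    (c0 cs : ℝ → ι → ℝ)
    (h0 : ∀ t ∈ G, ∀ j,
      ∫ _x in cell K (fun j => y j + t • (z j - y j)) (c0 t) j, (1 : ℝ) ∂μ = m j)
    (hs' : ∀ t ∈ G, ∀ j,
      ∫ x in cell K (fun j => y j + t • (z j - y j)) (cs t) j, (1 + s * g x) ∂μ = m j)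
    (κ : ℝ) (hκ : 0 ≤ κ)
    (hBS : ∀ t ∈ G,
      ∑ j, ‖(∫ x in cell K (fun j => y j + t • (z j - y j)) (cs t) j, (1 + s * g x) • x ∂μ)
        - ∫ x in cell K (fun j => y j + t • (z j - y j)) (c0 t) j, x ∂μ‖ ^ 2 / m j ≤ κ ^ 2) :
    s * ∫ x in K, (lagPot z (cs 1) x - lagPot y (c0 0) x) * g x ∂μ
      ≤ κ * Real.sqrt (∑ j, m j * ‖z j - y j‖ ^ 2) := by
  classical
  set P : ℝ → ι → E := fun t j => y j + t • (z j - y j) with hP
  set w0 : E → ℝ := fun _ => (1 : ℝ) with hw0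
  set ws : E → ℝ := fun x => 1 + s * g x with hws
  have hCg : 0 ≤ Cg := (abs_nonneg _).trans (hgb 0)
  have hw0m : Measurable w0 := measurable_const
  have hwsm : Measurable ws := measurable_const.add (measurable_const.mul hgm)
  have hw0b : ∀ x, |w0 x| ≤ 1 := fun x => by simp [hw0]
  have hwsb : ∀ x, |ws x| ≤ 1 + s * Cg := fun x => by
    have h1 : |ws x| ≤ |(1 : ℝ)| + |s * g x| := abs_add_le _ _
    have h2 : |s * g x| ≤ s * Cg := by
      rw [abs_mul, abs_of_nonneg hs]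
      exact mul_le_mul_of_nonneg_left (hgb x) hs
    simp only [abs_one] at h1
    linarith
  have hw0nn : ∀ x ∈ K, 0 ≤ w0 x := fun x _ => by simp [hw0]
  have hP0 : P 0 = y := by funext j; simp [hP]
  have hP1 : P 1 = z := by funext j; simp [hP]
  set Ms : ℝ → ℝ := fun t => val μ K (P t) (cs t) ws with hMs
  set M0 : ℝ → ℝ := fun t => val μ K (P t) (c0 t) w0 with hM0
  set A : ℝ → ℝ := fun t => ∑ j, inner ℝ (mom μ K (P t) (cs t) ws j) (z j - y j) with hA
  set B : ℝ → ℝ := fun t => ∑ j, inner ℝ (mom μ K (P t) (c0 t) w0 j) (z j - y j) with hB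
  -- slopes
  have hdiff : ∀ t t' : ℝ, ∀ j, P t' j - P t j = (t' - t) • (z j - y j) := by
    intro t t' j
    simp only [hP, sub_smul]; abel
  have slope : ∀ (w : E → ℝ) (c : ℝ → ι → ℝ), Measurable w → (∃ C, ∀ x, |w x| ≤ C) →
      (∀ x ∈ K, 0 ≤ w x) →
      (∀ t ∈ G, ∀ j, ∫ x in cell K (P t) (c t) j, w x ∂μ = m j) →
      ∀ t ∈ G, ∀ t' ∈ G, t ≤ t' →
        (t' - t) * (∑ j, inner ℝ (mom μ K (P t) (c t) w j) (z j - y j))
            ≤ val μ K (P t') (c t') w - val μ K (P t) (c t) w ∧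
        val μ K (P t') (c t') w - val μ K (P t) (c t) w
            ≤ (t' - t) * (∑ j, inner ℝ (mom μ K (P t') (c t') w j) (z j - y j)) := by
    intro w c hwm ⟨C, hwb⟩ hwnn hmass t ht t' ht' _
    have h1 := val_add_le μ hKc hwm hwb hwnn (hinj t ht) (hinj t' ht') (c t) (c t') m
      (hmass t ht) (hmass t' ht')
    have h2 := val_add_le μ hKc hwm hwb hwnn (hinj t' ht') (hinj t ht) (c t') (c t) m
      (hmass t' ht') (hmass t ht)
    have e1 : ∑ j, inner ℝ (mom μ K (P t) (c t) w j) (P t' j - P t j)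
        = (t' - t) * ∑ j, inner ℝ (mom μ K (P t) (c t) w j) (z j - y j) := by
      rw [Finset.mul_sum]
      refine Finset.sum_congr rfl fun j _ => ?_
      rw [hdiff t t' j, inner_smul_right]
    have e2 : ∑ j, inner ℝ (mom μ K (P t') (c t') w j) (P t j - P t' j)
        = -((t' - t) * ∑ j, inner ℝ (mom μ K (P t') (c t') w j) (z j - y j)) := by
      rw [Finset.mul_sum, ← Finset.sum_neg_distrib]
      refine Finset.sum_congr rfl fun j _ => ?_
      rw [hdiff t' t j, inner_smul_right]; ring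
    have h1' : val μ K (P t) (c t) w
        + ∑ j, inner ℝ (mom μ K (P t) (c t) w j) (P t' j - P t j) ≤ val μ K (P t') (c t') w := h1
    have h2' : val μ K (P t') (c t') w
        + ∑ j, inner ℝ (mom μ K (P t') (c t') w j) (P t j - P t' j) ≤ val μ K (P t) (c t) w := h2
    rw [e1] at h1'
    rw [e2] at h2'
    constructor <;> linarith
  have hAs := slope ws cs hwsm ⟨_, hwsb⟩ hsg hs'
  have hBs := slope w0 c0 hw0m ⟨_, hw0b⟩ hw0nn h0
  -- barycentre stability gives A - B ≤ κ W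
  have hAB : ∀ t ∈ G, A t - B t ≤ κ * Real.sqrt (∑ j, m j * ‖z j - y j‖ ^ 2) := by
    intro t ht
    have e : A t - B t
        = ∑ j, inner ℝ (mom μ K (P t) (cs t) ws j - mom μ K (P t) (c0 t) w0 j) (z j - y j) := by
      simp only [hA, hB, ← Finset.sum_sub_distrib, ← inner_sub_left]
    rw [e]
    refine sum_inner_le_of_weighted m hm _ _ κ hκ ?_
    have hb := hBS t ht
    have e0 : ∀ j, mom μ K (P t) (c0 t) w0 j = ∫ x in cell K (P t) (c0 t) j, x ∂μ := by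
      intro j
      simp only [mom, hw0, one_smul]
    simp only [e0]
    exact hb
  have hmix := mixed_diff_le G hG0 hG1 hfin Ms M0 A B _ hAs hBs hAB
  -- supergradient inequalities at the two endpoints
  have hb1 := val_sub_le μ hKc hwsm hw0m hwsb hw0b hw0nn (hinj 1 hG1) (cs 1) (c0 1) m
    (hs' 1 hG1) (h0 1 hG1)
  have hb0 := val_sub_le μ hKc hw0m hwsm hw0b hwsb hsg (hinj 0 hG0) (c0 0) (cs 0) m
    (h0 0 hG0) (hs' 0 hG0)
  have hgint : IntegrableOn g K μ :=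
    integrableOn_dens μ hKc hgm hgb
  have hi1 := integrableOn_lagPot_mul μ hKc hgm hgb z (cs 1)
  have hi0 := integrableOn_lagPot_mul μ hKc hgm hgb y (c0 0)
  have e1 : ∫ x in K, lagPot (P 1) (cs 1) x * (w0 x - ws x) ∂μ
      = -(s * ∫ x in K, lagPot z (cs 1) x * g x ∂μ) := by
    rw [hP1, ← integral_const_mul, ← integral_neg]
    refine integral_congr_ae (Filter.Eventually.of_forall fun x => ?_)
    show lagPot z (cs 1) x * (w0 x - ws x) = -(s * (lagPot z (cs 1) x * g x))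
    simp only [hw0, hws]; ring
  have e0 : ∫ x in K, lagPot (P 0) (c0 0) x * (ws x - w0 x) ∂μ
      = s * ∫ x in K, lagPot y (c0 0) x * g x ∂μ := by
    rw [hP0, ← integral_const_mul]
    refine integral_congr_ae (Filter.Eventually.of_forall fun x => ?_)
    show lagPot y (c0 0) x * (ws x - w0 x) = s * (lagPot y (c0 0) x * g x)
    simp only [hw0, hws]; ring
  rw [e1] at hb1
  rw [e0] at hb0
  have e2 : ∫ x in K, (lagPot z (cs 1) x - lagPot y (c0 0) x) * g x ∂μ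
      = ∫ x in K, lagPot z (cs 1) x * g x ∂μ - ∫ x in K, lagPot y (c0 0) x * g x ∂μ := by
    rw [← integral_sub hi1 hi0]
    refine integral_congr_ae (Filter.Eventually.of_forall fun x => ?_)
    show (lagPot z (cs 1) x - lagPot y (c0 0) x) * g x
      = lagPot z (cs 1) x * g x - lagPot y (c0 0) x * g x
    ring
  rw [e2]
  have hb1' : val μ K (P 1) (c0 1) w0 - val μ K (P 1) (cs 1) ws
      ≤ -(s * ∫ x in K, lagPot z (cs 1) x * g x ∂μ) := hb1
  have hb0' : val μ K (P 0) (cs 0) ws - val μ K (P 0) (c0 0) w0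
      ≤ s * ∫ x in K, lagPot y (c0 0) x * g x ∂μ := hb0
  have hmix' : (val μ K (P 1) (cs 1) ws - val μ K (P 0) (cs 0) ws)
      - (val μ K (P 1) (c0 1) w0 - val μ K (P 0) (c0 0) w0)
      ≤ κ * Real.sqrt (∑ j, m j * ‖z j - y j‖ ^ 2) := hmix
  linarith

end Vale.Agent.H77.OT
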