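import Vale.Agent.H22.OT.Defs
import Vale.Agent.H77.OT.PathBound

/-!
# ROW C of the P074 plan: the path estimate, in the common definitions of
`Vale.Agent.H22.OT.Defs`
-/

namespace Vale.Agent.H77

open MeasureTheory Set Vale.Agent.H22.OT

theorem lagPot_eq_lagPot {E : Type*} [NormedAddCommGroup E] [InnerProductSpace ℝ E]
    {ι : Type*} [Fintype ι] [Nonempty ι] (y : ι → E) (c : ι → ℝ) :
    lagPot y c = OT.lagPot y c := by
  funext x
  simp only [lagPot, OT.lagPot]
  exact Finset.sup'_univ_eq_ciSup _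

/-- The collision times of the linear interpolation between two injective site maps are
finitely many. -/
theorem finite_collision_times {E : Type*} [AddCommGroup E] [Module ℝ E] {ι : Type*} [Finite ι]
    (y z : ι → E) (hy : Function.Injective y) :
    {t : ℝ | ¬ Function.Injective (fun j => y j + t • (z j - y j))}.Finite := by
  have hsub : {t : ℝ | ¬ Function.Injective (fun j => y j + t • (z j - y j))}
      ⊆ ⋃ p ∈ {p : ι × ι | p.1 ≠ p.2},
          {t : ℝ | y p.1 + t • (z p.1 - y p.1) = y p.2 + t • (z p.2 - y p.2)} := by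
    intro t ht
    have hni : ¬ Function.Injective (fun j => y j + t • (z j - y j)) := ht
    rw [Function.Injective] at hni
    push Not at hni
    obtain ⟨i, j, hij, hne⟩ := hni
    exact Set.mem_biUnion (show (i, j) ∈ {p : ι × ι | p.1 ≠ p.2} from hne) hij
  refine (Set.Finite.biUnion (Set.toFinite _) fun p hp => ?_).subset hsub
  refine Set.Subsingleton.finite ?_
  intro t ht t' ht'
  by_contra hne
  have ht1 : y p.1 + t • (z p.1 - y p.1) = y p.2 + t • (z p.2 - y p.2) := ht
  have ht2 : y p.1 + t' • (z p.1 - y p.1) = y p.2 + t' • (z p.2 - y p.2) := ht'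
  set a : E := y p.1 - y p.2 with ha
  set b : E := (z p.1 - y p.1) - (z p.2 - y p.2) with hb
  have h1 : a + t • b = 0 := by
    rw [hb, smul_sub, ha]
    rw [← sub_eq_zero] at ht1
    rw [← ht1]; abel
  have h2 : a + t' • b = 0 := by
    rw [hb, smul_sub, ha]
    rw [← sub_eq_zero] at ht2
    rw [← ht2]; abel
  have h3 : (t - t') • b = 0 := by
    rw [sub_smul]
    have e1 : t • b = -a := by rw [eq_neg_iff_add_eq_zero, add_comm]; exact h1
    have e2 : t' • b = -a := by rw [eq_neg_iff_add_eq_zero, add_comm]; exact h2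
    rw [e1, e2, sub_self]
  have hb0 : b = 0 := by
    rcases smul_eq_zero.1 h3 with h | h
    · exact absurd (sub_eq_zero.1 h) hne
    · exact h
  have ha0 : a = 0 := by rw [hb0, smul_zero, add_zero] at h1; exact h1
  exact hp (hy (sub_eq_zero.1 ha0))

theorem path_estimate {d : ℕ} {ι : Type*} [Fintype ι] [Nonempty ι]
    {K : Set (EuclideanSpace ℝ (Fin d))} (hKc : IsCompact K) (hKconv : Convex ℝ K)
    (hKint : (interior K).Nonempty)
    {D : ℝ} (hD : ∀ x ∈ K, ∀ x' ∈ K, dist x x' ≤ D)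
    (g : EuclideanSpace ℝ (Fin d) → ℝ) (hg : Measurable g) (hgb : ∀ x, |g x| ≤ 1 / 2)
    (hg0 : ∫ x in K, g x = 0)
    (m : ι → ℝ) (hm : ∀ j, 0 < m j) (hsum : ∑ j, m j = volume.real K)
    (hex₀ : ∀ y' : ι → EuclideanSpace ℝ (Fin d), Function.Injective y' →
      ∃ c, IsOptPrice K 0 y' m c)
    (hex₁ : ∀ y' : ι → EuclideanSpace ℝ (Fin d), Function.Injective y' →
      ∃ c, IsOptPrice K g y' m c)
    (hBS : ∀ y' : ι → EuclideanSpace ℝ (Fin d), Function.Injective y' → ∀ c₀ c₁ : ι → ℝ,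
      IsOptPrice K 0 y' m c₀ → IsOptPrice K g y' m c₁ →
      ∑ j, ‖(∫ x in lagCell K y' c₁ j, (1 + g x) • x) - ∫ x in lagCell K y' c₀ j, x‖ ^ 2 / m j
        ≤ 10 * D ^ 2 * ∫ x in K, g x ^ 2)
    (y z : ι → EuclideanSpace ℝ (Fin d)) (hy : Function.Injective y) (hz : Function.Injective z)
    (c₀ c₁ : ι → ℝ) (h₀ : IsOptPrice K 0 y m c₀) (h₁ : IsOptPrice K g z m c₁) :
    ∫ x in K, (lagPot z c₁ x - lagPot y c₀ x) * g x
      ≤ Real.sqrt 10 * D * Real.sqrt (∫ x in K, g x ^ 2) *
          Real.sqrt (∑ i, m i * ‖z i - y i‖ ^ 2) := by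
  classical
  have _ := hKconv
  have _ := hg0
  have _ := hsum
  have hD0 : 0 ≤ D := by
    obtain ⟨x, hx⟩ := hKint
    have := hD x (interior_subset hx) x (interior_subset hx)
    rwa [dist_self] at this
  let P : ℝ → ι → EuclideanSpace ℝ (Fin d) := fun t j => y j + t • (z j - y j)
  let G : Set ℝ := {t | Function.Injective (P t)}
  have hP0 : P 0 = y := by funext j; simp [P]
  have hP1 : P 1 = z := by funext j; simp [P]
  have hG0 : (0 : ℝ) ∈ G := by
    show Function.Injective (P 0)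
    rw [hP0]; exact hy
  have hG1 : (1 : ℝ) ∈ G := by
    show Function.Injective (P 1)
    rw [hP1]; exact hz
  have hfin : (Set.Icc (0 : ℝ) 1 \ G).Finite :=
    (finite_collision_times y z hy).subset fun t ht => ht.2
  let c0 : ℝ → ι → ℝ := fun t =>
    if h : t ∈ G then (if t = 0 then c₀ else Classical.choose (hex₀ (P t) h)) else 0
  let cs : ℝ → ι → ℝ := fun t =>
    if h : t ∈ G then (if t = 1 then c₁ else Classical.choose (hex₁ (P t) h)) else 0
  have hc0 : ∀ t ∈ G, IsOptPrice K 0 (P t) m (c0 t) := by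
    intro t ht
    simp only [c0, dif_pos ht]
    split_ifs with h0
    · subst h0; rw [hP0]; exact h₀
    · exact Classical.choose_spec (hex₀ (P t) ht)
  have hcs : ∀ t ∈ G, IsOptPrice K g (P t) m (cs t) := by
    intro t ht
    simp only [cs, dif_pos ht]
    split_ifs with h1
    · subst h1; rw [hP1]; exact h₁
    · exact Classical.choose_spec (hex₁ (P t) ht)
  have hc00 : c0 0 = c₀ := by simp [c0, hG0]
  have hcs1 : cs 1 = c₁ := by simp [cs, hG1]
  have hsg : ∀ x ∈ K, 0 ≤ 1 + 1 * g x := fun x _ => by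
    have := (abs_le.1 (hgb x)).1
    linarith
  have h0' : ∀ t ∈ G, ∀ j,
      ∫ _x in OT.cell K (fun j => y j + t • (z j - y j)) (c0 t) j, (1 : ℝ) = m j := by
    intro t ht j
    have := hc0 t ht j
    simp only [Pi.zero_apply, add_zero] at this
    exact this
  have hs' : ∀ t ∈ G, ∀ j,
      ∫ x in OT.cell K (fun j => y j + t • (z j - y j)) (cs t) j, (1 + 1 * g x) = m j := by
    intro t ht j
    have := hcs t ht j
    simp only [one_mul]
    exact this
  have hI : 0 ≤ ∫ x in K, g x ^ 2 := integral_nonneg fun x => sq_nonneg _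
  set κ : ℝ := Real.sqrt 10 * D * Real.sqrt (∫ x in K, g x ^ 2) with hκ
  have hκ0 : 0 ≤ κ := by positivity
  have hκ2 : κ ^ 2 = 10 * D ^ 2 * ∫ x in K, g x ^ 2 := by
    rw [hκ, mul_pow, mul_pow, Real.sq_sqrt (by norm_num : (0 : ℝ) ≤ 10), Real.sq_sqrt hI]
  have hBS' : ∀ t ∈ G,
      ∑ j, ‖(∫ x in OT.cell K (fun j => y j + t • (z j - y j)) (cs t) j, (1 + 1 * g x) • x)
        - ∫ x in OT.cell K (fun j => y j + t • (z j - y j)) (c0 t) j, x‖ ^ 2 / m j ≤ κ ^ 2 := by
    intro t ht
    have := hBS (P t) ht (c0 t) (cs t) (hc0 t ht) (hcs t ht)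
    rw [hκ2]
    simp only [one_mul]
    exact this
  have hmain := OT.path_potential_bound (volume : Measure (EuclideanSpace ℝ (Fin d))) hKc y z m hm
    g hg hgb 1 zero_le_one hsg G hG0 hG1 hfin (fun t ht => ht) c0 cs h0' hs' κ hκ0 hBS'
  rw [one_mul, hc00, hcs1, ← lagPot_eq_lagPot, ← lagPot_eq_lagPot] at hmain
  exact hmain

end Vale.Agent.H77
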