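import Mathlib

/-!
# Laguerre cells, Laguerre potentials and weak duality for semi-discrete transport
(piece [C] of the P074 plan; only Fenchel–Young is used)
-/

namespace Vale.Agent.H77.OT

open MeasureTheory Set

variable {E : Type*} [NormedAddCommGroup E] [InnerProductSpace ℝ E]
variable {ι : Type*}

/-- Laguerre cell of the site `j` inside `K`, for sites `y` and prices `c`. -/
def cell (K : Set E) (y : ι → E) (c : ι → ℝ) (j : ι) : Set E :=
  {x | x ∈ K ∧ ∀ k, inner ℝ x (y k) - c k ≤ inner ℝ x (y j) - c j}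

/-- Laguerre potential `x ↦ max_j (⟨x, y j⟩ - c j)`. -/
noncomputable def lagPot (y : ι → E) (c : ι → ℝ) (x : E) : ℝ :=
  ⨆ j, (inner ℝ x (y j) - c j)

theorem cell_subset (K : Set E) (y : ι → E) (c : ι → ℝ) (j : ι) : cell K y c j ⊆ K :=
  fun _ hx => hx.1

theorem le_lagPot [Finite ι] (y : ι → E) (c : ι → ℝ) (x : E) (j : ι) :
    inner ℝ x (y j) - c j ≤ lagPot y c x :=
  le_ciSup (f := fun j => inner ℝ x (y j) - c j) (Set.finite_range _).bddAbove j

theorem lagPot_eq_of_mem_cell [Finite ι] {K : Set E} {y : ι → E} {c : ι → ℝ} {j : ι} {x : E}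
    (hx : x ∈ cell K y c j) : lagPot y c x = inner ℝ x (y j) - c j := by
  have : Nonempty ι := ⟨j⟩
  exact le_antisymm (ciSup_le fun k => hx.2 k) (le_lagPot y c x j)

theorem continuous_lagPot [Fintype ι] [Nonempty ι] (y : ι → E) (c : ι → ℝ) :
    Continuous (lagPot y c) := by
  have h : lagPot y c = fun x => Finset.univ.sup' Finset.univ_nonempty
      (fun j => inner ℝ x (y j) - c j) := by
    funext x
    simp only [lagPot]
    exact (Finset.sup'_univ_eq_ciSup _).symm
  rw [h]
  exact Continuous.finset_sup'_apply Finset.univ_nonempty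
    (fun j _ => (continuous_id.inner continuous_const).sub continuous_const)

theorem abs_lagPot_le [Fintype ι] [Nonempty ι] (y : ι → E) (c : ι → ℝ) (x : E) :
    |lagPot y c x| ≤ ∑ j, (‖x‖ * ‖y j‖ + |c j|) := by
  have hterm : ∀ j, |inner ℝ x (y j) - c j| ≤ ‖x‖ * ‖y j‖ + |c j| := fun j =>
    (abs_sub _ _).trans (add_le_add (abs_real_inner_le_norm _ _) le_rfl)
  have hnn : ∀ j, 0 ≤ ‖x‖ * ‖y j‖ + |c j| := fun j => by positivity
  rw [abs_le]
  constructor
  · obtain ⟨j⟩ := ‹Nonempty ι›
    have h1 := le_lagPot y c x j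
    have h2 := (abs_le.1 (hterm j)).1
    have h3 : ‖x‖ * ‖y j‖ + |c j| ≤ ∑ j, (‖x‖ * ‖y j‖ + |c j|) :=
      Finset.single_le_sum (fun i _ => hnn i) (Finset.mem_univ j)
    linarith
  · refine ciSup_le fun j => ?_
    have h2 := (abs_le.1 (hterm j)).2
    have h3 : ‖x‖ * ‖y j‖ + |c j| ≤ ∑ j, (‖x‖ * ‖y j‖ + |c j|) :=
      Finset.single_le_sum (fun i _ => hnn i) (Finset.mem_univ j)
    linarith

theorem iUnion_cell [Finite ι] [Nonempty ι] (K : Set E) (y : ι → E) (c : ι → ℝ) :
    ⋃ j, cell K y c j = K := by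
  apply Subset.antisymm
  · exact iUnion_subset fun j => cell_subset K y c j
  · intro x hx
    obtain ⟨j, hj⟩ := Finite.exists_max (fun j => inner ℝ x (y j) - c j)
    exact mem_iUnion.2 ⟨j, hx, hj⟩

variable [MeasurableSpace E] [BorelSpace E]

theorem measurableSet_cell [Countable ι] {K : Set E} (hK : MeasurableSet K) (y : ι → E)
    (c : ι → ℝ) (j : ι) : MeasurableSet (cell K y c j) := by
  have : cell K y c j = K ∩ ⋂ k, {x | inner ℝ x (y k) - c k ≤ inner ℝ x (y j) - c j} := by
    ext x; simp [cell]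
  rw [this]
  refine hK.inter (MeasurableSet.iInter fun k => ?_)
  exact (isClosed_le ((continuous_id.inner continuous_const).sub continuous_const)
    ((continuous_id.inner continuous_const).sub continuous_const)).measurableSet

variable [FiniteDimensional ℝ E]

/-- Hyperplanes are null for Haar measures. -/
theorem hyperplane_null (μ : Measure E) [μ.IsAddHaarMeasure] (a : E) (ha : a ≠ 0) (b : ℝ) :
    μ {x | inner ℝ x a = b} = 0 := by
  set S : Submodule ℝ E := LinearMap.ker (innerₛₗ ℝ a) with hS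
  have hmem : ∀ x, x ∈ S ↔ inner ℝ a x = 0 := fun x => by
    rw [hS, LinearMap.mem_ker]; rfl
  have hSne : S ≠ ⊤ := by
    intro htop
    have : a ∈ S := by rw [htop]; trivial
    rw [hmem] at this
    exact ha (inner_self_eq_zero.1 this)
  have h0 := Measure.addHaar_submodule μ S hSne
  set x₀ : E := (b / ‖a‖ ^ 2) • a with hx₀
  have hx₀a : inner ℝ a x₀ = b := by
    rw [hx₀, inner_smul_right, real_inner_self_eq_norm_sq]
    have : ‖a‖ ^ 2 ≠ 0 := by positivity
    field_simp
  have hset : {x | inner ℝ x a = b} = (fun x => x + -x₀) ⁻¹' (S : Set E) := by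
    ext x
    simp only [mem_ofPred_eq, mem_preimage, SetLike.mem_coe, hmem, inner_add_right,
      inner_neg_right, hx₀a]
    rw [real_inner_comm]
    constructor <;> intro h <;> linarith
  rw [hset, measure_preimage_add_right]
  exact h0

theorem aedisjoint_cell (μ : Measure E) [μ.IsAddHaarMeasure] (K : Set E) {y : ι → E}
    (hy : Function.Injective y) (c : ι → ℝ) {j k : ι} (hjk : j ≠ k) :
    AEDisjoint μ (cell K y c j) (cell K y c k) := by
  have hsub : cell K y c j ∩ cell K y c k ⊆ {x | inner ℝ x (y j - y k) = c j - c k} := by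
    intro x hx
    have h1 := hx.1.2 k
    have h2 := hx.2.2 j
    simp only [mem_ofPred_eq, inner_sub_right]
    linarith
  exact measure_mono_null hsub
    (hyperplane_null μ (y j - y k) (sub_ne_zero.2 (hy.ne hjk)) (c j - c k))

/-- The cells form an a.e. partition of `K` when the sites are distinct. -/
theorem integral_eq_sum_cell [Fintype ι] [Nonempty ι] (μ : Measure E) [μ.IsAddHaarMeasure]
    {K : Set E} (hK : MeasurableSet K) {y : ι → E} (hy : Function.Injective y) (c : ι → ℝ)
    {F : Type*} [NormedAddCommGroup F] [NormedSpace ℝ F] (f : E → F)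
    (hf : IntegrableOn f K μ) :
    ∫ x in K, f x ∂μ = ∑ j, ∫ x in cell K y c j, f x ∂μ := by
  have h := integral_iUnion_ae (μ := μ) (f := f) (s := fun j => cell K y c j)
    (fun j => (measurableSet_cell hK y c j).nullMeasurableSet)
    (fun j k hjk => aedisjoint_cell μ K hy c hjk) (by rw [iUnion_cell]; exact hf)
  rw [iUnion_cell, tsum_fintype] at h
  exact h

end Vale.Agent.H77.OT
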