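import Mathlib

/-!
# An abstract mixed second difference lemma (path argument for P074)

`Ms`, `M0` are two functions on `[0,1]` with slope selections `A`, `B` on a cofinite set `G`
of good times (both are convex-type: the increment between two good times is squeezed
between the slopes at the two ends).  If `A - B ≤ κ` at every good time then
the mixed second difference `Ms 1 - Ms 0 - (M0 1 - M0 0)` is at most `κ`.
-/

namespace Vale.Agent.H77

open Finset

/-- Riemann-sum form of the path argument for a fixed partition. -/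
theorem mixed_diff_le_partition (G : Set ℝ) (Ms M0 A B : ℝ → ℝ) (κ δ : ℝ)
    (hA : ∀ t ∈ G, ∀ t' ∈ G, t ≤ t' →
      (t' - t) * A t ≤ Ms t' - Ms t ∧ Ms t' - Ms t ≤ (t' - t) * A t')
    (hB : ∀ t ∈ G, ∀ t' ∈ G, t ≤ t' →
      (t' - t) * B t ≤ M0 t' - M0 t ∧ M0 t' - M0 t ≤ (t' - t) * B t')
    (hAB : ∀ t ∈ G, A t - B t ≤ κ)
    (n : ℕ) (t : ℕ → ℝ) (ht0 : t 0 = 0) (htn : t n = 1) (htG : ∀ k ≤ n, t k ∈ G)
    (hmono : ∀ k < n, t k < t (k + 1)) (hmesh : ∀ k < n, t (k + 1) - t k ≤ δ) :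
    (Ms 1 - Ms 0) - (M0 1 - M0 0) ≤ κ + δ * (B 1 - B 0) := by
  have hBmono : ∀ k < n, B (t k) ≤ B (t (k + 1)) := by
    intro k hk
    have h := hB (t k) (htG k hk.le) (t (k + 1)) (htG (k + 1) hk) (hmono k hk).le
    have hpos : 0 < t (k + 1) - t k := sub_pos.2 (hmono k hk)
    have h2 : (t (k + 1) - t k) * B (t k) ≤ (t (k + 1) - t k) * B (t (k + 1)) := h.1.trans h.2
    exact le_of_mul_le_mul_left h2 hpos
  have hMs : Ms 1 - Ms 0 = ∑ k ∈ range n, (Ms (t (k + 1)) - Ms (t k)) := by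
    rw [Finset.sum_range_sub (fun k => Ms (t k)) n, ht0, htn]
  have hM0 : M0 1 - M0 0 = ∑ k ∈ range n, (M0 (t (k + 1)) - M0 (t k)) := by
    rw [Finset.sum_range_sub (fun k => M0 (t k)) n, ht0, htn]
  have hBsum : B 1 - B 0 = ∑ k ∈ range n, (B (t (k + 1)) - B (t k)) := by
    rw [Finset.sum_range_sub (fun k => B (t k)) n, ht0, htn]
  have htsum : (1 : ℝ) = ∑ k ∈ range n, (t (k + 1) - t k) := by
    rw [Finset.sum_range_sub t n, ht0, htn]; ring
  have hterm : ∀ k ∈ range n,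
      (Ms (t (k + 1)) - Ms (t k)) - (M0 (t (k + 1)) - M0 (t k))
        ≤ κ * (t (k + 1) - t k) + δ * (B (t (k + 1)) - B (t k)) := by
    intro k hk
    have hk' : k < n := Finset.mem_range.1 hk
    have hle := (hmono k hk').le
    have h1 := (hA (t k) (htG k hk'.le) (t (k + 1)) (htG (k + 1) hk') hle).2
    have h2 := (hB (t k) (htG k hk'.le) (t (k + 1)) (htG (k + 1) hk') hle).1
    have h3 := hAB (t (k + 1)) (htG (k + 1) hk')
    have hpos : 0 ≤ t (k + 1) - t k := sub_nonneg.2 hle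
    have h4 : (t (k + 1) - t k) * (A (t (k + 1)) - B (t (k + 1))) ≤ (t (k + 1) - t k) * κ :=
      mul_le_mul_of_nonneg_left h3 hpos
    have h5 : (t (k + 1) - t k) * (B (t (k + 1)) - B (t k)) ≤ δ * (B (t (k + 1)) - B (t k)) :=
      mul_le_mul_of_nonneg_right (hmesh k hk') (sub_nonneg.2 (hBmono k hk'))
    nlinarith [h1, h2, h4, h5]
  calc (Ms 1 - Ms 0) - (M0 1 - M0 0)
      = ∑ k ∈ range n, ((Ms (t (k + 1)) - Ms (t k)) - (M0 (t (k + 1)) - M0 (t k))) := by
        rw [hMs, hM0, ← Finset.sum_sub_distrib]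
    _ ≤ ∑ k ∈ range n, (κ * (t (k + 1) - t k) + δ * (B (t (k + 1)) - B (t k))) :=
        Finset.sum_le_sum hterm
    _ = κ + δ * (B 1 - B 0) := by
        rw [Finset.sum_add_distrib, ← Finset.mul_sum, ← Finset.mul_sum, ← htsum, ← hBsum]
        ring

/-- Fine partitions of `[0,1]` inside a cofinite set of good times. -/
theorem exists_fine_partition (G : Set ℝ) (hG0 : (0 : ℝ) ∈ G) (hG1 : (1 : ℝ) ∈ G)
    (hfin : (Set.Icc (0 : ℝ) 1 \ G).Finite) (δ : ℝ) (hδ : 0 < δ) :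
    ∃ (n : ℕ) (t : ℕ → ℝ), t 0 = 0 ∧ t n = 1 ∧ (∀ k ≤ n, t k ∈ G) ∧
      (∀ k < n, t k < t (k + 1)) ∧ (∀ k < n, t (k + 1) - t k ≤ δ) := by
  obtain ⟨N, hN⟩ := exists_nat_gt (2 / δ)
  have hNpos : (0 : ℝ) < N := lt_trans (by positivity) hN
  have hN1 : 1 ≤ N := by
    rcases Nat.eq_zero_or_pos N with h | h
    · rw [h] at hNpos; simp at hNpos
    · exact h
  have hNδ : 2 / (N : ℝ) < δ := by
    rw [div_lt_iff₀ hNpos]
    rw [div_lt_iff₀ hδ] at hN
    linarith
  -- choose good points near k / N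
  have hex : ∀ k : ℕ, 0 < k → k < N →
      ∃ x : ℝ, x ∈ G ∧ (k : ℝ) / N - 1 / (4 * N) < x ∧ x < (k : ℝ) / N + 1 / (4 * N) := by
    intro k hk0 hkN
    have hlt : (k : ℝ) / N - 1 / (4 * N) < (k : ℝ) / N + 1 / (4 * N) := by
      have : (0 : ℝ) < 1 / (4 * N) := by positivity
      linarith
    obtain ⟨x, hx, hxF⟩ := ((Set.Ioo_infinite hlt).sdiff hfin).nonempty
    refine ⟨x, ?_, hx.1, hx.2⟩
    by_contra hxG
    apply hxF
    refine ⟨⟨?_, ?_⟩, hxG⟩
    · have h1 : (1 : ℝ) ≤ k := by exact_mod_cast hk0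
      have h2 : (1 : ℝ) / N ≤ (k : ℝ) / N := by
        apply div_le_div_of_nonneg_right h1 hNpos.le
      have h3 : (1 : ℝ) / (4 * N) = (1 / N) / 4 := by field_simp
      have h4 : (0 : ℝ) < 1 / N := by positivity
      linarith [hx.1]
    · have h1 : (k : ℝ) + 1 ≤ N := by exact_mod_cast hkN
      have h2 : ((k : ℝ) + 1) / N ≤ 1 := by
        rw [div_le_one hNpos]; exact h1
      have h3 : (1 : ℝ) / (4 * N) = (1 / N) / 4 := by field_simp
      have h4 : (0 : ℝ) < 1 / N := by positivity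
      have h5 : ((k : ℝ) + 1) / N = (k : ℝ) / N + 1 / N := by ring
      linarith [hx.2]
  classical
  choose! f hf using hex
  let t : ℕ → ℝ := fun k => if k = 0 then 0 else if N ≤ k then 1 else f k
  have ht_mid : ∀ k, 0 < k → k < N → t k = f k := by
    intro k hk0 hkN
    simp only [t, if_neg (Nat.pos_iff_ne_zero.1 hk0), if_neg (not_le.2 hkN)]
  have ht0 : t 0 = 0 := by simp [t]
  have htN : t N = 1 := by
    simp only [t, if_neg (Nat.pos_iff_ne_zero.1 hN1), le_refl, if_true]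
  -- bounds on t k
  have hbd : ∀ k ≤ N, (k : ℝ) / N - 1 / (4 * N) ≤ t k ∧ t k ≤ (k : ℝ) / N + 1 / (4 * N) := by
    intro k hk
    have h4 : (0 : ℝ) < 1 / (4 * N) := by positivity
    rcases Nat.eq_zero_or_pos k with h0 | h0
    · subst h0
      rw [ht0]; simp only [Nat.cast_zero, zero_div]
      constructor <;> linarith
    · rcases lt_or_eq_of_le hk with hlt | heq
      · rw [ht_mid k h0 hlt]
        exact ⟨(hf k h0 hlt).2.1.le, (hf k h0 hlt).2.2.le⟩
      · subst heq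
        rw [htN, div_self hNpos.ne']
        constructor <;> linarith
  have hstep : ∀ k : ℕ, ((k + 1 : ℕ) : ℝ) / N = (k : ℝ) / N + 1 / N := by
    intro k; push_cast; ring
  have hq : (1 : ℝ) / (4 * N) = (1 / N) / 4 := by field_simp
  have h1N : (0 : ℝ) < 1 / N := by positivity
  refine ⟨N, t, ht0, htN, ?_, ?_, ?_⟩
  · intro k hk
    rcases Nat.eq_zero_or_pos k with h0 | h0
    · subst h0; rw [ht0]; exact hG0
    · rcases lt_or_eq_of_le hk with hlt | heq
      · rw [ht_mid k h0 hlt]; exact (hf k h0 hlt).1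
      · subst heq; rw [htN]; exact hG1
  · intro k hk
    have h1 := (hbd k hk.le).2
    have h2 := (hbd (k + 1) hk).1
    rw [hstep k] at h2
    linarith
  · intro k hk
    have h1 := (hbd k hk.le).1
    have h2 := (hbd (k + 1) hk).2
    rw [hstep k] at h2
    have : (2 : ℝ) / N = 2 * (1 / N) := by ring
    linarith

/-- **Abstract path lemma.**  `G` is a cofinite set of good times in `[0,1]` containing the
endpoints.  `A t` (resp. `B t`) is a slope of `Ms` (resp. `M0`) at every good time, in the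
two-sided sense below (as for subgradients of convex functions).  If `A - B ≤ κ` at all good
times, then the mixed second difference is at most `κ`. -/
theorem mixed_diff_le (G : Set ℝ) (hG0 : (0 : ℝ) ∈ G) (hG1 : (1 : ℝ) ∈ G)
    (hfin : (Set.Icc (0 : ℝ) 1 \ G).Finite) (Ms M0 A B : ℝ → ℝ) (κ : ℝ)
    (hA : ∀ t ∈ G, ∀ t' ∈ G, t ≤ t' →
      (t' - t) * A t ≤ Ms t' - Ms t ∧ Ms t' - Ms t ≤ (t' - t) * A t')
    (hB : ∀ t ∈ G, ∀ t' ∈ G, t ≤ t' →
      (t' - t) * B t ≤ M0 t' - M0 t ∧ M0 t' - M0 t ≤ (t' - t) * B t')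
    (hAB : ∀ t ∈ G, A t - B t ≤ κ) :
    (Ms 1 - Ms 0) - (M0 1 - M0 0) ≤ κ := by
  have hB01 : B 0 ≤ B 1 := by
    have h := hB 0 hG0 1 hG1 zero_le_one
    have h2 : (1 - 0 : ℝ) * B 0 ≤ (1 - 0) * B 1 := h.1.trans h.2
    simpa using h2
  refine le_of_forall_pos_le_add fun η hη => ?_
  set β : ℝ := B 1 - B 0 with hβ
  have hβ0 : 0 ≤ β := sub_nonneg.2 hB01
  have hδ : 0 < η / (β + 1) := by positivity
  obtain ⟨n, t, ht0, htn, htG, hmono, hmesh⟩ :=
    exists_fine_partition G hG0 hG1 hfin (η / (β + 1)) hδ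
  have h := mixed_diff_le_partition G Ms M0 A B κ (η / (β + 1)) hA hB hAB n t ht0 htn htG
    hmono hmesh
  have h2 : η / (β + 1) * β ≤ η := by
    rw [div_mul_eq_mul_div, div_le_iff₀ (by positivity)]
    nlinarith
  linarith

end Vale.Agent.H77
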