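import Vale.Agent.H77.OT.Cells
import Vale.Agent.H77.OT.Path

/-!
# Weak duality for Laguerre partitions and the path bound (piece [C] of the P074 plan)

`w` is a bounded measurable density which is nonnegative on the compact set `K`.
All statements only use Fenchel–Young: `⟨x, y j⟩ - c j ≤ lagPot y c x` with equality on the
cell of `j`.
-/

namespace Vale.Agent.H77.OT

open MeasureTheory Set

variable {E : Type*} [NormedAddCommGroup E] [InnerProductSpace ℝ E] [FiniteDimensional ℝ E]
  [MeasurableSpace E] [BorelSpace E]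
variable {ι : Type*} [Fintype ι] [Nonempty ι]

omit [InnerProductSpace ℝ E] [FiniteDimensional ℝ E] [Fintype ι] [Nonempty ι] in
theorem integrableOn_bdd {F : Type*} [NormedAddCommGroup F] (μ : Measure E)
    [IsFiniteMeasureOnCompacts μ] {K : Set E} (hKc : IsCompact K) {f : E → F}
    (hf : AEStronglyMeasurable f μ) {M : ℝ} (hM : ∀ x ∈ K, ‖f x‖ ≤ M) : IntegrableOn f K μ :=
  Measure.integrableOn_of_bounded hKc.measure_lt_top.ne hf
    ((ae_restrict_iff' hKc.measurableSet).2 (Filter.Eventually.of_forall hM))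

section
variable (μ : Measure E) [μ.IsAddHaarMeasure] {K : Set E} (hKc : IsCompact K)
  {w : E → ℝ} (hwm : Measurable w) {Cw : ℝ} (hwb : ∀ x, |w x| ≤ Cw)
include hKc hwm hwb

omit [FiniteDimensional ℝ E] in
theorem integrableOn_inner_mul (v : E) : IntegrableOn (fun x => inner ℝ x v * w x) K μ := by
  obtain ⟨R, hR⟩ := hKc.isBounded.exists_norm_le
  have hCw : 0 ≤ Cw := (abs_nonneg _).trans (hwb 0)
  refine integrableOn_bdd μ hKc (M := R * ‖v‖ * Cw)
    (((continuous_id.inner continuous_const).measurable.mul hwm).aestronglyMeasurable) ?_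
  intro x hx
  rw [norm_mul, Real.norm_eq_abs, Real.norm_eq_abs]
  have h1 : |inner ℝ x v| ≤ R * ‖v‖ :=
    (abs_real_inner_le_norm _ _).trans (mul_le_mul_of_nonneg_right (hR x hx) (norm_nonneg _))
  exact mul_le_mul h1 (hwb x) (abs_nonneg _) ((abs_nonneg _).trans h1)

omit [FiniteDimensional ℝ E] in
theorem integrableOn_lagPot_mul (y : ι → E) (c : ι → ℝ) :
    IntegrableOn (fun x => lagPot y c x * w x) K μ := by
  obtain ⟨R, hR⟩ := hKc.isBounded.exists_norm_le
  have hCw : 0 ≤ Cw := (abs_nonneg _).trans (hwb 0)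
  refine integrableOn_bdd μ hKc (M := (∑ j, (|R| * ‖y j‖ + |c j|)) * Cw)
    (((continuous_lagPot y c).measurable.mul hwm).aestronglyMeasurable) ?_
  intro x hx
  rw [norm_mul, Real.norm_eq_abs, Real.norm_eq_abs]
  have h1 : |lagPot y c x| ≤ ∑ j, (|R| * ‖y j‖ + |c j|) := by
    refine (abs_lagPot_le y c x).trans (Finset.sum_le_sum fun j _ => ?_)
    have : ‖x‖ ≤ |R| := (hR x hx).trans (le_abs_self R)
    have := mul_le_mul_of_nonneg_right this (norm_nonneg (y j))
    linarith
  exact mul_le_mul h1 (hwb x) (abs_nonneg _) ((abs_nonneg _).trans h1)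

omit [InnerProductSpace ℝ E] [FiniteDimensional ℝ E] in
theorem integrableOn_dens : IntegrableOn w K μ :=
  integrableOn_bdd μ hKc (M := Cw) hwm.aestronglyMeasurable
    (fun x _ => by rw [Real.norm_eq_abs]; exact hwb x)

theorem integrableOn_dens_smul : IntegrableOn (fun x => w x • x) K μ := by
  obtain ⟨R, hR⟩ := hKc.isBounded.exists_norm_le
  have hCw : 0 ≤ Cw := (abs_nonneg _).trans (hwb 0)
  refine integrableOn_bdd μ hKc (M := Cw * |R|)
    ((hwm.smul measurable_id).aestronglyMeasurable) ?_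
  intro x hx
  rw [norm_smul, Real.norm_eq_abs]
  exact mul_le_mul (hwb x) ((hR x hx).trans (le_abs_self R)) (norm_nonneg _) hCw

/-- Weak duality: the partition by the cells of `y`, `c`, tested against the sites `y'`,
is bounded by the dual value of any prices `c'`. -/
theorem weak_duality {y : ι → E} (hy : Function.Injective y) (c : ι → ℝ) (y' : ι → E)
    (c' : ι → ℝ) (hw0 : ∀ x ∈ K, 0 ≤ w x) :
    ∑ j, ∫ x in cell K y c j, inner ℝ x (y' j) * w x ∂μ
      ≤ ∫ x in K, lagPot y' c' x * w x ∂μ + ∑ j, c' j * ∫ x in cell K y c j, w x ∂μ := by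
  have hKm := hKc.measurableSet
  have hint2 := integrableOn_lagPot_mul μ hKc hwm hwb y' c'
  have hint3 := integrableOn_dens μ hKc hwm hwb
  rw [integral_eq_sum_cell μ hKm hy c _ hint2, ← Finset.sum_add_distrib]
  refine Finset.sum_le_sum fun j _ => ?_
  have hsub := cell_subset K y c j
  have hm := measurableSet_cell hKm y c j
  have hi1 := (integrableOn_inner_mul μ hKc hwm hwb (y' j)).mono_set hsub
  have hi2 := hint2.mono_set hsub
  have hi3 : IntegrableOn (fun x => c' j * w x) (cell K y c j) μ :=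
    (hint3.mono_set hsub).const_mul _
  calc ∫ x in cell K y c j, inner ℝ x (y' j) * w x ∂μ
      ≤ ∫ x in cell K y c j, (lagPot y' c' x * w x + c' j * w x) ∂μ := by
        refine setIntegral_mono_on hi1 (hi2.add hi3) hm ?_
        intro x hx
        have h1 := le_lagPot y' c' x j
        have h2 := hw0 x (hsub hx)
        nlinarith
    _ = ∫ x in cell K y c j, lagPot y' c' x * w x ∂μ
          + c' j * ∫ x in cell K y c j, w x ∂μ := by
        rw [integral_add hi2 hi3, integral_const_mul]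

/-- Strong duality (equality) for the partition of `y`, `c` against its own sites. -/
theorem duality_eq {y : ι → E} (hy : Function.Injective y) (c : ι → ℝ) :
    ∑ j, ∫ x in cell K y c j, inner ℝ x (y j) * w x ∂μ
      = ∫ x in K, lagPot y c x * w x ∂μ + ∑ j, c j * ∫ x in cell K y c j, w x ∂μ := by
  have hKm := hKc.measurableSet
  have hint2 := integrableOn_lagPot_mul μ hKc hwm hwb y c
  have hint3 := integrableOn_dens μ hKc hwm hwb
  rw [integral_eq_sum_cell μ hKm hy c _ hint2, ← Finset.sum_add_distrib]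
  refine Finset.sum_congr rfl fun j _ => ?_
  have hsub := cell_subset K y c j
  have hm := measurableSet_cell hKm y c j
  have hi2 := hint2.mono_set hsub
  have hi3 : IntegrableOn (fun x => c j * w x) (cell K y c j) μ :=
    (hint3.mono_set hsub).const_mul _
  rw [← integral_const_mul, ← integral_add hi2 hi3]
  refine setIntegral_congr_fun hm fun x hx => ?_
  rw [lagPot_eq_of_mem_cell hx]; ring

theorem setIntegral_inner_mul (v : E) {s : Set E} (hs : s ⊆ K) :
    ∫ x in s, inner ℝ x v * w x ∂μ = inner ℝ (∫ x in s, w x • x ∂μ) v := by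
  have hi := (integrableOn_dens_smul μ hKc hwm hwb).mono_set hs
  have h := integral_inner (𝕜 := ℝ) hi v
  rw [real_inner_comm, ← h]
  refine integral_congr_ae (Filter.Eventually.of_forall fun x => ?_)
  show inner ℝ x v * w x = inner ℝ v (w x • x)
  rw [inner_smul_right, real_inner_comm]; ring

end

/-- First moment of the cell of `j` with respect to the density `w`. -/
noncomputable def mom (μ : Measure E) (K : Set E) (y : ι → E) (c : ι → ℝ) (w : E → ℝ)
    (j : ι) : E := ∫ x in cell K y c j, w x • x ∂μ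

/-- Correlation value of the Laguerre partition of `y`, `c` for the density `w`. -/
noncomputable def val (μ : Measure E) (K : Set E) (y : ι → E) (c : ι → ℝ) (w : E → ℝ) : ℝ :=
  ∑ j, inner ℝ (mom μ K y c w j) (y j)

section
variable (μ : Measure E) [μ.IsAddHaarMeasure] {K : Set E} (hKc : IsCompact K)
include hKc

/-- (a) Optimality of a Laguerre partition with the right masses against any other partition
with the same masses: subgradient inequality for the value as a function of the sites. -/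
theorem val_add_le {w : E → ℝ} (hwm : Measurable w) {Cw : ℝ} (hwb : ∀ x, |w x| ≤ Cw)
    (hw0 : ∀ x ∈ K, 0 ≤ w x) {y y' : ι → E} (hy : Function.Injective y)
    (hy' : Function.Injective y') (c c' : ι → ℝ) (m : ι → ℝ)
    (hmass : ∀ j, ∫ x in cell K y c j, w x ∂μ = m j)
    (hmass' : ∀ j, ∫ x in cell K y' c' j, w x ∂μ = m j) :
    val μ K y c w + ∑ j, inner ℝ (mom μ K y c w j) (y' j - y j) ≤ val μ K y' c' w := by
  have h1 := weak_duality μ hKc hwm hwb hy c y' c' hw0
  have h2 := duality_eq μ hKc hwm hwb hy' c'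
  have e1 : ∀ j, ∫ x in cell K y c j, inner ℝ x (y' j) * w x ∂μ
      = inner ℝ (mom μ K y c w j) (y' j) := fun j =>
    setIntegral_inner_mul μ hKc hwm hwb (y' j) (cell_subset K y c j)
  have e2 : ∀ j, ∫ x in cell K y' c' j, inner ℝ x (y' j) * w x ∂μ
      = inner ℝ (mom μ K y' c' w j) (y' j) := fun j =>
    setIntegral_inner_mul μ hKc hwm hwb (y' j) (cell_subset K y' c' j)
  simp only [e1, hmass] at h1
  simp only [e2, hmass'] at h2
  have e3 : val μ K y c w + ∑ j, inner ℝ (mom μ K y c w j) (y' j - y j)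
      = ∑ j, inner ℝ (mom μ K y c w j) (y' j) := by
    simp only [val, ← Finset.sum_add_distrib, ← inner_add_right]
    refine Finset.sum_congr rfl fun j _ => ?_
    congr 1; abel
  rw [e3]
  calc ∑ j, inner ℝ (mom μ K y c w j) (y' j)
      ≤ ∫ x in K, lagPot y' c' x * w x ∂μ + ∑ j, c' j * m j := h1
    _ = val μ K y' c' w := by simp only [val]; exact h2.symm

/-- (b) Supergradient inequality for the value as a function of the density. -/
theorem val_sub_le {w₁ w₂ : E → ℝ} (hwm₁ : Measurable w₁) (hwm₂ : Measurable w₂) {C₁ C₂ : ℝ}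
    (hwb₁ : ∀ x, |w₁ x| ≤ C₁) (hwb₂ : ∀ x, |w₂ x| ≤ C₂) (hw0 : ∀ x ∈ K, 0 ≤ w₂ x)
    {y : ι → E} (hy : Function.Injective y) (c₁ c₂ : ι → ℝ) (m : ι → ℝ)
    (hmass₁ : ∀ j, ∫ x in cell K y c₁ j, w₁ x ∂μ = m j)
    (hmass₂ : ∀ j, ∫ x in cell K y c₂ j, w₂ x ∂μ = m j) :
    val μ K y c₂ w₂ - val μ K y c₁ w₁ ≤ ∫ x in K, lagPot y c₁ x * (w₂ x - w₁ x) ∂μ := by
  have h1 := weak_duality μ hKc hwm₂ hwb₂ hy c₂ y c₁ hw0
  have h2 := duality_eq μ hKc hwm₁ hwb₁ hy c₁
  have e1 : ∀ j, ∫ x in cell K y c₂ j, inner ℝ x (y j) * w₂ x ∂μ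
      = inner ℝ (mom μ K y c₂ w₂ j) (y j) := fun j =>
    setIntegral_inner_mul μ hKc hwm₂ hwb₂ (y j) (cell_subset K y c₂ j)
  have e2 : ∀ j, ∫ x in cell K y c₁ j, inner ℝ x (y j) * w₁ x ∂μ
      = inner ℝ (mom μ K y c₁ w₁ j) (y j) := fun j =>
    setIntegral_inner_mul μ hKc hwm₁ hwb₁ (y j) (cell_subset K y c₁ j)
  simp only [e1, hmass₂] at h1
  simp only [e2, hmass₁] at h2
  have hi1 := integrableOn_lagPot_mul μ hKc hwm₁ hwb₁ y c₁
  have hi2 := integrableOn_lagPot_mul μ hKc hwm₂ hwb₂ y c₁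
  have e3 : ∫ x in K, lagPot y c₁ x * (w₂ x - w₁ x) ∂μ
      = ∫ x in K, lagPot y c₁ x * w₂ x ∂μ - ∫ x in K, lagPot y c₁ x * w₁ x ∂μ := by
    rw [← integral_sub hi2 hi1]
    refine integral_congr_ae (Filter.Eventually.of_forall fun x => ?_)
    show lagPot y c₁ x * (w₂ x - w₁ x) = lagPot y c₁ x * w₂ x - lagPot y c₁ x * w₁ x
    ring
  rw [e3]
  simp only [val]
  linarith

end

end Vale.Agent.H77.OT
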